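import Crest.Agent.Helper20.Snaky.Bridge

/-!
# S0047 (Snaky): bitboard rules for generated certificates (second Lean track, helper32)

A board window of width `W` is addressed by cell indices `k ↦ (k % W, k / W)`; sets of cells are
`ℕ` bitboards.  `Wins W d M Bz Z` is helper20's zone win `ZWin d (cells M) (cells Bz) (cells Z)`.
Each rule (`double`, `threat`, `quiet`) takes the child lemmas as hypotheses and ONE closed Boolean
side condition, which the kernel evaluates with its built-in `Nat` arithmetic.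
-/

set_option autoImplicit false

namespace Crest.Agent.Helper32.Snaky

open Crest.CombinatoricsR.PolyominoGame
open Crest.Agent.Helper20.Snaky

/-- The cell with index `k` on a board of width `W`. -/
def cellOf (W k : ℕ) : Cell := (((k % W : ℕ) : ℤ), ((k / W : ℕ) : ℤ))

theorem cellOf_inj {W : ℕ} {a b : ℕ} (h : cellOf W a = cellOf W b) : a = b := by
  unfold cellOf at h
  rw [Prod.mk.injEq] at h
  have h1 : a % W = b % W := by exact_mod_cast h.1
  have h2 : a / W = b / W := by exact_mod_cast h.2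
  rw [← Nat.div_add_mod a W, ← Nat.div_add_mod b W, h1, h2]

theorem cellOf_mul_add {W x y : ℕ} (hx : x < W) : cellOf W (y * W + x) = ((x : ℤ), (y : ℤ)) := by
  unfold cellOf
  have hW : 0 < W := by omega
  have h1 : (y * W + x) % W = x := by
    rw [Nat.add_comm, Nat.add_mul_mod_self_right, Nat.mod_eq_of_lt hx]
  have h2 : (y * W + x) / W = y := by
    rw [Nat.add_comm, Nat.add_mul_div_right _ _ hW, Nat.div_eq_of_lt hx, Nat.zero_add]
  rw [h1, h2]

/-- The set of cells of a bitboard. -/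
def cells (W X : ℕ) : Finset Cell :=
  ((Finset.range (X + 1)).filter (fun k => X.testBit k = true)).image (cellOf W)

theorem mem_cells {W X : ℕ} {c : Cell} :
    c ∈ cells W X ↔ ∃ k, X.testBit k = true ∧ cellOf W k = c := by
  unfold cells
  rw [Finset.mem_image]
  constructor
  · rintro ⟨k, hk, rfl⟩
    exact ⟨k, (Finset.mem_filter.mp hk).2, rfl⟩
  · rintro ⟨k, hk, rfl⟩
    refine ⟨k, Finset.mem_filter.mpr ⟨?_, hk⟩, rfl⟩
    rw [Finset.mem_range]
    have h1 : 2 ^ k ≤ X := Nat.ge_two_pow_of_testBit hk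
    have h2 : k < 2 ^ k := Nat.lt_two_pow_self
    omega

theorem cellOf_mem_cells {W X k : ℕ} : cellOf W k ∈ cells W X ↔ X.testBit k = true := by
  rw [mem_cells]
  constructor
  · rintro ⟨j, hj, hjk⟩
    rw [← cellOf_inj hjk]
    exact hj
  · intro h
    exact ⟨k, h, rfl⟩

theorem cells_zero (W : ℕ) : cells W 0 = ∅ := by
  ext c
  rw [mem_cells]
  simp

theorem lor_eq (a b : ℕ) : Nat.lor a b = a ||| b := rfl

theorem land_eq (a b : ℕ) : Nat.land a b = a &&& b := rfl

theorem xor_eq (a b : ℕ) : Nat.xor a b = a ^^^ b := rfl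

/-- Kernel-friendly bit test. -/
def tb (X k : ℕ) : Bool := Nat.beq (Nat.land 1 (Nat.shiftRight X k)) 1

theorem tb_eq (X k : ℕ) : tb X k = X.testBit k := by
  unfold tb Nat.testBit
  have h : Nat.land 1 (Nat.shiftRight X k) = 1 &&& X >>> k := rfl
  rw [h]
  rcases Nat.and_one_is_mod (X >>> k) ▸ Nat.mod_two_eq_zero_or_one (X >>> k) with h0 | h1
  · have : 1 &&& X >>> k = 0 := by rw [Nat.and_comm]; exact h0
    rw [this]
    rfl
  · have : 1 &&& X >>> k = 1 := by rw [Nat.and_comm]; exact h1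
    rw [this]
    rfl

/-- The bit `2 ^ m`. -/
def bit (m : ℕ) : ℕ := Nat.shiftLeft 1 m

theorem bit_eq (m : ℕ) : bit m = 2 ^ m := by
  unfold bit
  exact Nat.one_shiftLeft m

/-- Bitboard inclusion test. -/
def sub (A B : ℕ) : Bool := Nat.beq (Nat.lor A B) B

theorem sub_testBit {A B : ℕ} (h : sub A B = true) {k : ℕ} (hk : A.testBit k = true) :
    B.testBit k = true := by
  unfold sub at h
  have h' : A ||| B = B := Nat.eq_of_beq_eq_true h
  rw [← h', Nat.testBit_or, hk, Bool.true_or]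

theorem sub_cells {W A B : ℕ} (h : sub A B = true) : cells W A ⊆ cells W B := by
  intro c hc
  rw [mem_cells] at hc ⊢
  obtain ⟨k, hk, rfl⟩ := hc
  exact ⟨k, sub_testBit h hk, rfl⟩

theorem testBit_or_two_pow {M m k : ℕ} :
    (M ||| 2 ^ m).testBit k = true ↔ (M.testBit k = true ∨ k = m) := by
  rw [Nat.testBit_or, Bool.or_eq_true, Nat.testBit_two_pow, decide_eq_true_eq]
  constructor
  · rintro (h | h)
    · exact Or.inl h
    · exact Or.inr h.symm
  · rintro (h | h)
    · exact Or.inl h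
    · exact Or.inr h.symm

theorem cells_or_two_pow (W M m : ℕ) :
    cells W (M ||| 2 ^ m) = insert (cellOf W m) (cells W M) := by
  ext c
  rw [Finset.mem_insert, mem_cells, mem_cells]
  constructor
  · rintro ⟨k, hk, rfl⟩
    rcases testBit_or_two_pow.mp hk with h | h
    · exact Or.inr ⟨k, h, rfl⟩
    · exact Or.inl (by rw [h])
  · rintro (h | ⟨k, hk, rfl⟩)
    · exact ⟨m, testBit_or_two_pow.mpr (Or.inr rfl), h.symm⟩
    · exact ⟨k, testBit_or_two_pow.mpr (Or.inl hk), rfl⟩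

/-- The zone win on bitboards. -/
def Wins (W d M Bz Z : ℕ) : Prop := ZWin d (cells W M) (cells W Bz) (cells W Z)

theorem Wins.zwin {W d M Bz Z : ℕ} (h : Wins W d M Bz Z) :
    ZWin d (cells W M) (cells W Bz) (cells W Z) := h

/-! ### Placements of Snaky -/

/-- Coordinate `b + p` (if `s`) or `b - p`. -/
def coord (s : Bool) (b p : ℕ) : ℕ := cond s (Nat.add b p) (Nat.sub b p)

/-- One cell of a placement: the cell `(tx ± px, ty ± py)` is on the board and in `X`. -/
def ptOK (W X : ℕ) (s1 s2 : Bool) (tx ty px py : ℕ) : Bool :=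
  (s1 || Nat.ble px tx) && ((s2 || Nat.ble py ty) &&
    (Nat.ble (Nat.succ (coord s1 tx px)) W &&
      tb X (Nat.add (Nat.mul (coord s2 ty py) W) (coord s1 tx px))))

/-- The placement with anchor `(tx, ty)`, signs `s1`, `s2` (`true` = `+`) and swap flag `sw`
lies inside the bitboard `X`. -/
def plOK (W X : ℕ) (sw s1 s2 : Bool) (tx ty : ℕ) : Bool :=
  cond sw
    (ptOK W X s1 s2 tx ty 0 0 && (ptOK W X s1 s2 tx ty 0 1 && (ptOK W X s1 s2 tx ty 0 2 &&
      (ptOK W X s1 s2 tx ty 0 3 && (ptOK W X s1 s2 tx ty 1 3 && ptOK W X s1 s2 tx ty 1 4)))))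
    (ptOK W X s1 s2 tx ty 0 0 && (ptOK W X s1 s2 tx ty 1 0 && (ptOK W X s1 s2 tx ty 2 0 &&
      (ptOK W X s1 s2 tx ty 3 0 && (ptOK W X s1 s2 tx ty 3 1 && ptOK W X s1 s2 tx ty 4 1)))))

/-- The sign attached to a flag. -/
def sgn (s : Bool) : ℤ := cond s 1 (-1)

theorem sgn_cases (s : Bool) : sgn s = 1 ∨ sgn s = -1 := by
  cases s
  · exact Or.inr rfl
  · exact Or.inl rfl

theorem coord_cast {s : Bool} {b p : ℕ} (h : (s || Nat.ble p b) = true) :
    ((coord s b p : ℕ) : ℤ) = (b : ℤ) + sgn s * (p : ℤ) := by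
  cases s
  · have hp : p ≤ b := by
      rw [Bool.false_or] at h
      exact Nat.le_of_ble_eq_true h
    show ((b - p : ℕ) : ℤ) = (b : ℤ) + (-1) * (p : ℤ)
    rw [Nat.cast_sub hp]
    ring
  · show ((b + p : ℕ) : ℤ) = (b : ℤ) + 1 * (p : ℤ)
    rw [Nat.cast_add]
    ring

theorem ptOK_mem {W X : ℕ} {s1 s2 : Bool} {tx ty px py : ℕ}
    (h : ptOK W X s1 s2 tx ty px py = true) :
    ((tx : ℤ) + sgn s1 * (px : ℤ), (ty : ℤ) + sgn s2 * (py : ℤ)) ∈ cells W X := by
  unfold ptOK at h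
  rw [Bool.and_eq_true, Bool.and_eq_true, Bool.and_eq_true] at h
  obtain ⟨h1, h2, h3, h4⟩ := h
  have hlt : coord s1 tx px < W := Nat.le_of_ble_eq_true h3
  rw [tb_eq] at h4
  rw [← coord_cast h1, ← coord_cast h2, ← cellOf_mul_add hlt]
  exact cellOf_mem_cells.mpr h4

theorem plOK_copy {W X : ℕ} {sw s1 s2 : Bool} {tx ty : ℕ}
    (h : plOK W X sw s1 s2 tx ty = true) : ContainsCopy (↑(cells W X) : Set Cell) := by
  refine ⟨((tx : ℤ), (ty : ℤ)), sgn s1, sgn s2, sgn_cases s1, sgn_cases s2, ?_⟩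
  cases sw
  · left
    have h' : (ptOK W X s1 s2 tx ty 0 0 && (ptOK W X s1 s2 tx ty 1 0 &&
        (ptOK W X s1 s2 tx ty 2 0 && (ptOK W X s1 s2 tx ty 3 0 &&
        (ptOK W X s1 s2 tx ty 3 1 && ptOK W X s1 s2 tx ty 4 1))))) = true := h
    rw [Bool.and_eq_true, Bool.and_eq_true, Bool.and_eq_true, Bool.and_eq_true,
      Bool.and_eq_true] at h'
    obtain ⟨g0, g1, g2, g3, g4, g5⟩ := h'
    have e0 := ptOK_mem g0
    have e1 := ptOK_mem g1
    have e2 := ptOK_mem g2
    have e3 := ptOK_mem g3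
    have e4 := ptOK_mem g4
    have e5 := ptOK_mem g5
    intro p hp
    rw [Finset.mem_coe]
    unfold snaky at hp
    simp only [Finset.mem_insert, Finset.mem_singleton] at hp
    rcases hp with rfl | rfl | rfl | rfl | rfl | rfl
    · simpa using e0
    · simpa using e1
    · simpa using e2
    · simpa using e3
    · simpa using e4
    · simpa using e5
  · right
    have h' : (ptOK W X s1 s2 tx ty 0 0 && (ptOK W X s1 s2 tx ty 0 1 &&
        (ptOK W X s1 s2 tx ty 0 2 && (ptOK W X s1 s2 tx ty 0 3 &&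
        (ptOK W X s1 s2 tx ty 1 3 && ptOK W X s1 s2 tx ty 1 4))))) = true := h
    rw [Bool.and_eq_true, Bool.and_eq_true, Bool.and_eq_true, Bool.and_eq_true,
      Bool.and_eq_true] at h'
    obtain ⟨g0, g1, g2, g3, g4, g5⟩ := h'
    have e0 := ptOK_mem g0
    have e1 := ptOK_mem g1
    have e2 := ptOK_mem g2
    have e3 := ptOK_mem g3
    have e4 := ptOK_mem g4
    have e5 := ptOK_mem g5
    intro p hp
    rw [Finset.mem_coe]
    unfold snaky at hp
    simp only [Finset.mem_insert, Finset.mem_singleton] at hp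
    rcases hp with rfl | rfl | rfl | rfl | rfl | rfl
    · simpa using e0
    · simpa using e1
    · simpa using e2
    · simpa using e3
    · simpa using e4
    · simpa using e5

/-! ### Free cells -/

/-- `m` is a free cell of the zone. -/
def freeIn (M Bz Z m : ℕ) : Bool := tb Z m && (!tb M m && !tb Bz m)

theorem freeIn_spec {W M Bz Z m : ℕ} (h : freeIn M Bz Z m = true) :
    cellOf W m ∈ cells W Z ∧ cellOf W m ∉ cells W M ∧ cellOf W m ∉ cells W Bz := by
  unfold freeIn at h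
  rw [Bool.and_eq_true, Bool.and_eq_true, Bool.not_eq_true', Bool.not_eq_true', tb_eq, tb_eq,
    tb_eq] at h
  obtain ⟨h1, h2, h3⟩ := h
  refine ⟨cellOf_mem_cells.mpr h1, ?_, ?_⟩
  · rw [cellOf_mem_cells, h2]
    exact Bool.false_ne_true
  · rw [cellOf_mem_cells, h3]
    exact Bool.false_ne_true

theorem cellOf_ne {W a b : ℕ} (h : Nat.beq a b = false) : cellOf W a ≠ cellOf W b := by
  intro hab
  have := cellOf_inj hab
  subst this
  rw [Nat.beq_refl] at h
  exact Bool.noConfusion h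

/-! ### Rule 1: double threat -/

/-- Side condition of the double-threat rule. -/
def chkDouble (W d M Bz Z m t1 t2 : ℕ) (sw1 a1 b1 : Bool) (x1 y1 : ℕ)
    (sw2 a2 b2 : Bool) (x2 y2 : ℕ) : Bool :=
  Nat.ble 2 d && (freeIn M Bz Z m && (freeIn M Bz Z t1 && (freeIn M Bz Z t2 &&
    (!Nat.beq t1 m && (!Nat.beq t2 m && (!Nat.beq t1 t2 &&
      (plOK W (Nat.lor (Nat.lor M (bit m)) (bit t1)) sw1 a1 b1 x1 y1 &&
        plOK W (Nat.lor (Nat.lor M (bit m)) (bit t2)) sw2 a2 b2 x2 y2)))))))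

theorem double {W d M Bz Z : ℕ} (m t1 t2 : ℕ) (sw1 a1 b1 : Bool) (x1 y1 : ℕ)
    (sw2 a2 b2 : Bool) (x2 y2 : ℕ)
    (h : chkDouble W d M Bz Z m t1 t2 sw1 a1 b1 x1 y1 sw2 a2 b2 x2 y2 = true) :
    Wins W d M Bz Z := by
  unfold chkDouble at h
  simp only [Bool.and_eq_true, Bool.not_eq_true', lor_eq, bit_eq] at h
  obtain ⟨hd, hm, ht1, ht2, h1m, h2m, h12, hp1, hp2⟩ := h
  have hd' : 2 ≤ d := Nat.le_of_ble_eq_true hd
  obtain ⟨n, rfl⟩ : ∃ n, d = n + 1 := ⟨d - 1, by omega⟩
  obtain ⟨hmZ, hmM, hmB⟩ := freeIn_spec (W := W) hm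
  obtain ⟨h1Z, h1M, h1B⟩ := freeIn_spec (W := W) ht1
  obtain ⟨h2Z, h2M, h2B⟩ := freeIn_spec (W := W) ht2
  have c1 := plOK_copy hp1
  have c2 := plOK_copy hp2
  rw [cells_or_two_pow, cells_or_two_pow] at c1 c2
  exact ZWin.double (by omega) (cellOf W m) (cellOf W t1) (cellOf W t2) hmM hmZ hmB
    (cellOf_ne h12) h1M (cellOf_ne h1m) h1Z h1B h2M (cellOf_ne h2m) h2Z h2B c1 c2

/-! ### Rule 2: threat -/

/-- Side condition of the threat rule. -/
def chkThreat (W d M Bz Z cd cM cBz cZ m t : ℕ) (sw a b : Bool) (x y : ℕ) : Bool :=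
  Nat.ble 2 d && (Nat.ble (Nat.succ cd) d && (freeIn M Bz Z m && (freeIn M Bz Z t &&
    (!Nat.beq t m && (plOK W (Nat.lor (Nat.lor M (bit m)) (bit t)) sw a b x y &&
      (sub cM (Nat.lor M (bit m)) && (sub cZ Z &&
        sub (Nat.land (Nat.lor Bz (bit t)) cZ) cBz)))))))

theorem threat {W d M Bz Z cd cM cBz cZ : ℕ} (m t : ℕ) (sw a b : Bool) (x y : ℕ)
    (child : Wins W cd cM cBz cZ)
    (h : chkThreat W d M Bz Z cd cM cBz cZ m t sw a b x y = true) :
    Wins W d M Bz Z := by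
  unfold chkThreat at h
  simp only [Bool.and_eq_true, Bool.not_eq_true', lor_eq, land_eq, bit_eq] at h
  obtain ⟨hd, hcd, hm, ht, htm, hp, hsM, hsZ, hsB⟩ := h
  have hd' : 2 ≤ d := Nat.le_of_ble_eq_true hd
  have hcd' : cd + 1 ≤ d := Nat.le_of_ble_eq_true hcd
  obtain ⟨n, rfl⟩ : ∃ n, d = n + 1 := ⟨d - 1, by omega⟩
  obtain ⟨hmZ, hmM, hmB⟩ := freeIn_spec (W := W) hm
  obtain ⟨htZ, htM, htB⟩ := freeIn_spec (W := W) ht
  have c := plOK_copy hp
  rw [cells_or_two_pow, cells_or_two_pow] at c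
  refine ZWin.threat (by omega) (cellOf W m) (cellOf W t) hmM hmZ hmB htM (cellOf_ne htm) htZ htB c
    ⟨cells W cZ, sub_cells hsZ, ?_⟩
  refine ZWin.mono child (by omega) ?_ (Finset.Subset.refl _) ?_
  · rw [← cells_or_two_pow]
    exact sub_cells hsM
  · intro x hx hxZ
    rw [← cells_or_two_pow] at hx
    rw [mem_cells] at hx hxZ ⊢
    obtain ⟨k, hk, rfl⟩ := hx
    obtain ⟨j, hj, hjk⟩ := hxZ
    have := cellOf_inj hjk
    subst this
    refine ⟨j, sub_testBit hsB ?_, rfl⟩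
    rw [Nat.testBit_and, hk, hj]
    rfl

/-! ### Rule 3: quiet move -/

/-- A child specification `(depth, M, Bz, Z)`. -/
abbrev Spec := ℕ × ℕ × ℕ × ℕ

/-- All the listed children are proved. -/
def AllWins (W : ℕ) : List Spec → Prop
  | [] => True
  | c :: l => Wins W c.1 c.2.1 c.2.2.1 c.2.2.2 ∧ AllWins W l

theorem AllWins.nil {W : ℕ} : AllWins W [] := trivial

theorem AllWins.cons {W cd cM cBz cZ : ℕ} {l : List Spec} (h : Wins W cd cM cBz cZ)
    (hl : AllWins W l) : AllWins W ((cd, cM, cBz, cZ) :: l) := ⟨h, hl⟩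

theorem AllWins.mem {W : ℕ} : ∀ {l : List Spec}, AllWins W l → ∀ c ∈ l,
    Wins W c.1 c.2.1 c.2.2.1 c.2.2.2
  | [], _, c, hc => absurd hc (List.not_mem_nil)
  | c0 :: l, h, c, hc => by
      rcases List.mem_cons.mp hc with rfl | hc
      · exact h.1
      · exact AllWins.mem h.2 c hc

/-- The cells of the zone of a child where a Breaker stone is not yet accounted for. -/
def unh (c : Spec) : ℕ := Nat.xor c.2.2.2 (Nat.land c.2.2.2 c.2.2.1)

theorem unh_testBit {c : Spec} {k : ℕ} :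
    (unh c).testBit k = (c.2.2.2.testBit k && !c.2.2.1.testBit k) := by
  unfold unh
  rw [xor_eq, land_eq, Nat.testBit_xor, Nat.testBit_and]
  cases c.2.2.2.testBit k <;> cases c.2.2.1.testBit k <;> rfl

/-- The replies no child handles. -/
def covR : List Spec → ℕ → ℕ
  | [], R => R
  | c :: l, R => covR l (Nat.land R (unh c))

theorem covR_testBit : ∀ (l : List Spec) (R k : ℕ), R.testBit k = true →
    (∀ c ∈ l, (unh c).testBit k = true) → (covR l R).testBit k = true
  | [], R, k, hR, _ => hR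
  | c :: l, R, k, hR, hl => by
      refine covR_testBit l (Nat.land R (unh c)) k ?_
        (fun c' hc' => hl c' (List.mem_cons_of_mem _ hc'))
      rw [land_eq, Nat.testBit_and, hR, hl c List.mem_cons_self]
      rfl

/-- Per-child side conditions of the quiet rule. -/
def chkKids (d Mm Bz Z : ℕ) : List Spec → Bool
  | [] => true
  | c :: l => Nat.ble (Nat.succ c.1) d && (sub c.2.1 Mm && (sub c.2.2.2 Z &&
      (sub (Nat.land Bz c.2.2.2) c.2.2.1 && chkKids d Mm Bz Z l)))

theorem chkKids_mem {d Mm Bz Z : ℕ} : ∀ {l : List Spec}, chkKids d Mm Bz Z l = true →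
    ∀ c ∈ l, c.1 + 1 ≤ d ∧ sub c.2.1 Mm = true ∧ sub c.2.2.2 Z = true ∧
      sub (Bz &&& c.2.2.2) c.2.2.1 = true
  | [], _, c, hc => absurd hc (List.not_mem_nil)
  | c0 :: l, h, c, hc => by
      have h' : (Nat.ble (Nat.succ c0.1) d && (sub c0.2.1 Mm && (sub c0.2.2.2 Z &&
          (sub (Nat.land Bz c0.2.2.2) c0.2.2.1 && chkKids d Mm Bz Z l)))) = true := h
      simp only [Bool.and_eq_true] at h'
      obtain ⟨h1, h2, h3, h4, h5⟩ := h'
      rcases List.mem_cons.mp hc with rfl | hc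
      · exact ⟨Nat.le_of_ble_eq_true h1, h2, h3, h4⟩
      · exact chkKids_mem h5 c hc

/-- Side condition of the quiet rule. -/
def chkQuiet (d M Bz Z m : ℕ) (l : List Spec) : Bool :=
  freeIn M Bz Z m && (!l.isEmpty && (chkKids d (Nat.lor M (bit m)) Bz Z l &&
    sub (covR l Z) (Nat.lor (Nat.lor M (bit m)) Bz)))

theorem quiet {W d M Bz Z : ℕ} (m : ℕ) {l : List Spec} (kids : AllWins W l)
    (h : chkQuiet d M Bz Z m l = true) : Wins W d M Bz Z := by
  unfold chkQuiet at h
  simp only [Bool.and_eq_true, Bool.not_eq_true', lor_eq, bit_eq] at h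
  obtain ⟨hm, hne, hk, hcov⟩ := h
  obtain ⟨hmZ, hmM, hmB⟩ := freeIn_spec (W := W) hm
  obtain ⟨c0, l0, rfl⟩ : ∃ c0 l0, l = c0 :: l0 := by
    cases l with
    | nil => exact absurd hne (by simp)
    | cons c0 l0 => exact ⟨c0, l0, rfl⟩
  have hc0 := chkKids_mem hk c0 List.mem_cons_self
  have hd : 1 ≤ d := by omega
  obtain ⟨n, rfl⟩ : ∃ n, d = n + 1 := ⟨d - 1, by omega⟩
  -- a child `c` answers the reply `r` when `r` is outside its zone or among its Breaker stones
  have key : ∀ (c : Spec), c ∈ c0 :: l0 → ∀ (B : Finset Cell) (r : Cell),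
      (∀ x ∈ B, x ∈ cells W Z → x ∈ cells W Bz) →
      (r ∈ cells W c.2.2.2 → r ∈ cells W c.2.2.1) →
      MWin n (insert (cellOf W m) (cells W M)) (insert r B) := by
    intro c hc B r hB hr
    obtain ⟨h1, h2, h3, h4⟩ := chkKids_mem hk c hc
    have hw := AllWins.mem kids c hc
    have hw' : MWin c.1 (cells W c.2.1) (insert r B) := by
      refine hw (insert r B) ?_
      intro x hx hxZ
      rcases Finset.mem_insert.mp hx with rfl | hx
      · exact hr hxZ
      · have hxBz := hB x hx (sub_cells h3 hxZ)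
        rw [mem_cells] at hxBz hxZ ⊢
        obtain ⟨k, hk', rfl⟩ := hxBz
        obtain ⟨j, hj, hjk⟩ := hxZ
        have := cellOf_inj hjk
        subst this
        refine ⟨j, sub_testBit h4 ?_, rfl⟩
        rw [Nat.testBit_and, hk', hj]
        rfl
    refine (hw'.mono ?_ (Finset.Subset.refl _)).mono_n (by omega)
    rw [← cells_or_two_pow]
    exact sub_cells h2
  intro B hB
  have hmB' : cellOf W m ∉ B := fun hmem => hmB (hB _ hmem hmZ)
  refine MWin.step n (cells W M) B (cellOf W m) hmM hmB' (fun r hrM hrm _ => ?_)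
  by_cases hex : ∃ c ∈ c0 :: l0, (r ∈ cells W c.2.2.2 → r ∈ cells W c.2.2.1)
  · obtain ⟨c, hc, hr⟩ := hex
    exact key c hc B r hB hr
  · exfalso
    have hall : ∀ c ∈ c0 :: l0, r ∈ cells W c.2.2.2 ∧ r ∉ cells W c.2.2.1 := by
      intro c hc
      by_contra hcon
      exact hex ⟨c, hc, fun hz => by_contra (fun hb => hcon ⟨hz, hb⟩)⟩
    obtain ⟨hr0, hr0'⟩ := hall c0 List.mem_cons_self
    rw [mem_cells] at hr0
    obtain ⟨k, hk0, rfl⟩ := hr0
    have hkZ : Z.testBit k = true := sub_testBit hc0.2.2.1 hk0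
    have hunh : ∀ c ∈ c0 :: l0, (unh c).testBit k = true := by
      intro c hc
      obtain ⟨g1, g2⟩ := hall c hc
      rw [cellOf_mem_cells] at g1 g2
      rw [unh_testBit, g1]
      cases hb : c.2.2.1.testBit k
      · rfl
      · exact absurd hb g2
    have hR := sub_testBit hcov (covR_testBit (c0 :: l0) Z k hkZ hunh)
    rw [Nat.testBit_or] at hR
    rcases Bool.or_eq_true_iff.mp hR with hR | hR
    · rcases testBit_or_two_pow.mp hR with hR | hR
      · exact hrM (cellOf_mem_cells.mpr hR)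
      · exact hrm (by rw [hR])
    · apply hr0'
      rw [cellOf_mem_cells]
      refine sub_testBit hc0.2.2.2 ?_
      rw [Nat.testBit_and, hR, hk0]
      rfl

/-! ### Root -/

theorem mwin_of_wins {W d Z : ℕ} (h : Wins W d 0 0 Z) : MWin d ∅ ∅ := by
  have h' := h.zwin
  rw [cells_zero] at h'
  exact mwin_of_zwin h'

end Crest.Agent.Helper32.Snaky
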