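import Crest.Agent.Helper32.Snaky.Rules

/-!
# S0047 (Snaky): rule variants with a numeric orientation code

Same rules as in `Rules.lean`; a placement is given by `o x y` with `o = 4 * swap + 2 * sx + sy`
(`sx`, `sy` = 1 for the sign `+`).  Generated certificate files refer to these through aliases
declared in the generated file itself.
-/

set_option autoImplicit false

namespace Crest.Agent.Helper32.Snaky

/-- Swap flag of an orientation code. -/
def swOf (o : ℕ) : Bool := Nat.ble 4 o

/-- First sign flag of an orientation code. -/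
def s1Of (o : ℕ) : Bool := tb o 1

/-- Second sign flag of an orientation code. -/
def s2Of (o : ℕ) : Bool := tb o 0

/-- Side condition of the double-threat rule, orientation codes. -/
def chkDoubleC (W d M Bz Z m t1 t2 o1 x1 y1 o2 x2 y2 : ℕ) : Bool :=
  chkDouble W d M Bz Z m t1 t2 (swOf o1) (s1Of o1) (s2Of o1) x1 y1 (swOf o2) (s1Of o2) (s2Of o2) x2 y2

theorem doubleC {W d M Bz Z : ℕ} (m t1 t2 o1 x1 y1 o2 x2 y2 : ℕ)
    (h : chkDoubleC W d M Bz Z m t1 t2 o1 x1 y1 o2 x2 y2 = true) : Wins W d M Bz Z :=
  double m t1 t2 (swOf o1) (s1Of o1) (s2Of o1) x1 y1 (swOf o2) (s1Of o2) (s2Of o2) x2 y2 h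

/-- Side condition of the threat rule, orientation code. -/
def chkThreatC (W d M Bz Z cd cM cBz cZ m t o x y : ℕ) : Bool :=
  chkThreat W d M Bz Z cd cM cBz cZ m t (swOf o) (s1Of o) (s2Of o) x y

theorem threatC {W d M Bz Z cd cM cBz cZ : ℕ} (m t o x y : ℕ) (child : Wins W cd cM cBz cZ)
    (h : chkThreatC W d M Bz Z cd cM cBz cZ m t o x y = true) : Wins W d M Bz Z :=
  threat m t (swOf o) (s1Of o) (s2Of o) x y child h

end Crest.Agent.Helper32.Snaky
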